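import Crest.Agent.H2.RP.Mult
import Crest.Agent.H4.VD.Dim

/-! Skeleton for S0149: definitions and task statements. -/

set_option autoImplicit false

noncomputable section

namespace Crest.Agent.H9.RI

open MeasureTheory Set Filter Crest.AnalysisR.RotationRep Crest.Agent.H2.RP Crest.Agent.H4.VD
open scoped InnerProductSpace Classical

abbrev Op : Type := HH →L[ℂ] HH

/-- `k` steps of the rotation -/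
def mv (θ : ℝ) (x : Cir) (k : ℤ) : Cir := x + ((k * θ : ℝ) : Cir)

/-- real measurable, bounded by `R` -/
def RB (v : Cir → ℝ) (R : ℝ) : Prop := Measurable v ∧ ∀ x, |v x| ≤ R

/-- pairs `(x, k)` with `x ∈ S`, `x + kθ ∈ S'` -/
def EE (θ : ℝ) (S S' : Set Cir) : Set (Cir × ℤ) := {z | z.1 ∈ S ∧ mv θ z.1 z.2 ∈ S'}

/-- the cocycle `f_n` -/
def fn (θ : ℝ) (f : Cir → ℝ) (n : ℕ) (x : Cir) : ℝ := ∏ i ∈ Finset.range n, f (mv θ x i)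

/-- real multiplier -/
def pr' (θ : ℝ) (h : Cir → ℝ) : Op := pi θ fun x => (h x : ℂ)

def iS (θ : ℝ) (S : Set Cir) : Op := pi θ (S.indicator fun _ => (1 : ℂ))

/-- `[e^v p]` -/
def pv (θ : ℝ) (v : Cir → ℝ) (p : Op) : Op := rp (pr' θ (fun x => Real.exp (v x)) * p)

structure Setup (θ : ℝ) (U V : Op) (T : VT HH) : Prop where
  hUV : IsRotationPair θ U V
  sub : vonNeumannGenerated {U, V} ⊆ T.M
  rc : ∀ x ∈ T.M, ∀ h, BM h → x * pi 0 h = pi 0 h * x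
  tau : ∀ x, T.τ x = ⟪dl 0 0, x (dl 0 0)⟫_ℂ

/-- diagonal `ρ` and squared Fourier coefficients `ν` of a projection `q` -/
structure IsKer (θ : ℝ) (T : VT HH) (q : Op) (ρ : Cir → ℝ) (ν : Measure (Cir × ℤ)) : Prop where
  mρ : Measurable ρ
  r01 : ∀ x, 0 ≤ ρ x ∧ ρ x ≤ 1
  fin : IsFiniteMeasure ν
  diag : ∀ h R, RB h R → T.t (q * pr' θ h) = ∫ x, ρ x * h x ∂mu
  rect : ∀ S S', MeasurableSet S → MeasurableSet S' →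
    ν.real (EE θ S S') = T.t (iS θ S' * q * iS θ S * q)
  zero : ν.real {z | z.2 = 0} = ∫ x, ρ x ^ 2 ∂mu

/-- an invariant projection of `U f(V)` -/
structure Inv (θ : ℝ) (U V : Op) (T : VT HH) (f : Cir → ℝ) (p : Op) : Prop where
  set : Setup θ U V T
  mf : Measurable f
  f01 : ∀ x, 0 ≤ f x ∧ f x ≤ 1
  proj : IsStarProjection p
  mem : p ∈ T.M
  inv : (1 - p) * (U * pr' θ f) * p = 0

def T_vt : Prop := ∀ (θ : ℝ) (U V : Op), IsRotationPair θ U V → ∃ T : VT HH, Setup θ U V T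

def T_ker : Prop := ∀ (θ : ℝ) (U V : Op) (T : VT HH) (q : Op), Setup θ U V T → q ∈ T.M →
  IsStarProjection q → ∃ ρ ν, IsKer θ T q ρ ν

/-- one threshold: operator monotonicity of the inverse -/
def T_gain : Prop := ∀ (θ : ℝ) (U V : Op) (T : VT HH) (q : Op) (d : Cir → ℝ) (R a : ℝ),
  Setup θ U V T → q ∈ T.M → IsStarProjection q → RB d R →
  T.t (q * iS θ {x | a < d x}) +
      T.t (iS θ {x | a + 1 < d x} * q * iS θ {x | a < d x}ᶜ * q) / 2 ≤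
    T.t (pv θ d q * iS θ {x | a < d x})

/-- layer cake over the thresholds -/
def T_cake : Prop := ∀ (θ : ℝ) (ρ ρ' d : Cir → ℝ) (R : ℝ) (ν : Measure (Cir × ℤ))
  [IsFiniteMeasure ν], RB ρ 1 → RB ρ' 1 → RB d R → ∫ x, ρ x ∂mu = ∫ x, ρ' x ∂mu →
  (∀ S S', MeasurableSet S → MeasurableSet S' → ν.real (EE θ S S') = ν.real (EE θ S' S)) →
  (∀ a : ℝ, ∫ x in {x | a < d x}, ρ x ∂mu + ν.real (EE θ {x | a < d x}ᶜ {x | a + 1 < d x}) / 2 ≤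
    ∫ x in {x | a < d x}, ρ' x ∂mu) →
  ν.real {z | 2 ≤ |d (mv θ z.1 z.2) - d z.1|} / 4 ≤ ∫ x, (ρ' x - ρ x) * d x ∂mu

def T_lip : Prop := ∀ (θ : ℝ) (U V : Op) (T : VT HH) (q : Op) (d : Cir → ℝ) (R : ℝ)
  (ρ ρ' : Cir → ℝ) (ν ν' : Measure (Cir × ℤ)), Setup θ U V T → q ∈ T.M → IsStarProjection q →
  RB d R → IsKer θ T q ρ ν → IsKer θ T (pv θ d q) ρ' ν' →
  ∫ x, (ρ' x - ρ x) ^ 2 ∂mu ≤ 2 * Real.exp (4 * R) * ∫ x, d x ^ 2 ∂mu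

/-- `J p J⋆ ≤ p` -/
def T_mono : Prop := ∀ (θ : ℝ) (U V : Op) (T : VT HH) (f : Cir → ℝ) (p : Op) (v : Cir → ℝ)
  (R κ : ℝ) (Z S : Set Cir) (ρ : Cir → ℝ) (ν : Measure (Cir × ℤ)), Inv θ U V T f p → RB v R →
  IsKer θ T (pv θ v p) ρ ν → MeasurableSet Z → MeasurableSet S →
  (∀ x ∉ Z, f x * Real.exp (v (mv θ x 1) - v x + κ) ≤ 1) →
  (∀ x ∈ S, x ∉ Z ∧ f x * Real.exp (v (mv θ x 1) - v x + κ) = 1) →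
  ∫ x in S, ρ x ∂mu - mu.real Z ≤ ∫ x in S, ρ (mv θ x 1) ∂mu

/-- the test inequality -/
def T_hyp : Prop := ∀ (θ : ℝ) (U V : Op) (T : VT HH) (f : Cir → ℝ) (p : Op) (v : Cir → ℝ)
  (R : ℝ) (n : ℕ) (S Z : Set Cir) (B C A β : ℝ) (ρ₀ ρ : Cir → ℝ) (ν₀ ν : Measure (Cir × ℤ)),
  Inv θ U V T f p → RB v R → IsKer θ T p ρ₀ ν₀ → IsKer θ T (pv θ v p) ρ ν →
  MeasurableSet S → MeasurableSet Z → 0 < B → 0 < C → 0 < β → β ≤ 1 →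
  Real.exp (2 * R - A) ≤ β ^ 2 → (∀ x ∉ Z, B ≤ fn θ f n x) →
  (∀ x ∉ Z, x ∈ S → fn θ f n x ≤ C * Real.exp (-A)) → (∀ x ∉ Z, x ∉ S → C ≤ fn θ f n x) →
  ν.real (EE θ S Sᶜ) ≤ ∫ x in S, ρ x ∂mu - ∫ x in S, ρ₀ (mv θ x n) ∂mu + mu.real Z + 5 * β

/-- everything the combinatorial part needs to know about `v ↦ [e^v p]` -/
structure Fam (θ : ℝ) (f : Cir → ℝ) (t : ℝ) where
  ρ : (Cir → ℝ) → Cir → ℝ
  ν : (Cir → ℝ) → Measure (Cir × ℤ)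
  mρ : ∀ v, Measurable (ρ v)
  r01 : ∀ v x, 0 ≤ ρ v x ∧ ρ v x ≤ 1
  fin : ∀ v, IsFiniteMeasure (ν v)
  mean : ∀ v R, RB v R → ∫ x, ρ v x ∂mu = t
  left : ∀ v R, RB v R → ∀ S, MeasurableSet S → (ν v).real (EE θ S univ) = ∫ x in S, ρ v x ∂mu
  right : ∀ v R, RB v R → ∀ S, MeasurableSet S → (ν v).real (EE θ univ S) = ∫ x in S, ρ v x ∂mu
  zero : ∀ v R, RB v R → (ν v).real {z | z.2 = 0} = ∫ x, ρ v x ^ 2 ∂mu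
  bonus : ∀ u v R R', RB u R → RB v R' →
    (ν u).real {z | 2 ≤ |(v (mv θ z.1 z.2) - u (mv θ z.1 z.2)) - (v z.1 - u z.1)|} / 4 ≤
      ∫ x, (ρ v x - ρ u x) * (v x - u x) ∂mu
  lip : ∀ u v R, RB u R → RB v R →
    ∫ x, (ρ v x - ρ u x) ^ 2 ∂mu ≤ 2 * Real.exp (8 * R) * ∫ x, (v x - u x) ^ 2 ∂mu
  mono : ∀ v R κ Z S, RB v R → MeasurableSet Z → MeasurableSet S →
    (∀ x ∉ Z, f x * Real.exp (v (mv θ x 1) - v x + κ) ≤ 1) →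
    (∀ x ∈ S, x ∉ Z ∧ f x * Real.exp (v (mv θ x 1) - v x + κ) = 1) →
    ∫ x in S, ρ v x ∂mu - mu.real Z ≤ ∫ x in S, ρ v (mv θ x 1) ∂mu
  hyp : ∀ v R (n : ℕ) S Z (B C A β : ℝ), RB v R → MeasurableSet S → MeasurableSet Z → 0 < B →
    0 < C → 0 < β → β ≤ 1 → Real.exp (2 * R - A) ≤ β ^ 2 → (∀ x ∉ Z, B ≤ fn θ f n x) →
    (∀ x ∉ Z, x ∈ S → fn θ f n x ≤ C * Real.exp (-A)) → (∀ x ∉ Z, x ∉ S → C ≤ fn θ f n x) →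
    (ν v).real (EE θ S Sᶜ) ≤
      ∫ x in S, ρ v x ∂mu - ∫ x in S, ρ 0 (mv θ x n) ∂mu + mu.real Z + 5 * β

def T_fam : Prop := T_ker → T_gain → T_cake → T_lip → T_mono → T_hyp →
  ∀ (θ : ℝ) (U V : Op) (T : VT HH) (f : Cir → ℝ) (p : Op), Inv θ U V T f p →
    Nonempty (Fam θ f (T.t p))

/-- a family of tests separating the pairs in `Sep` -/
def Tests (θ : ℝ) (f : Cir → ℝ) (V : Set Cir) (η δ A : ℝ) (Sep : Set (Cir × ℤ)) : Prop :=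
  ∃ (K : ℕ) (n : Fin K → ℕ) (S Z : Fin K → Set Cir) (B C : Fin K → ℝ) (Y : Set Cir),
    0 < K ∧ (∀ k, MeasurableSet (S k)) ∧ (∀ k, MeasurableSet (Z k)) ∧ MeasurableSet Y ∧
    (∀ k, mu.real (Z k) ≤ δ) ∧ mu.real Y ≤ δ ∧ (∀ k, 0 < B k) ∧ (∀ k, 0 < C k) ∧
    (∀ k, ∀ x ∉ Z k, B k ≤ fn θ f (n k) x) ∧
    (∀ k, ∀ x ∉ Z k, x ∈ S k → fn θ f (n k) x ≤ C k * Real.exp (-A)) ∧
    (∀ k, ∀ x ∉ Z k, x ∉ S k → C k ≤ fn θ f (n k) x) ∧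
    (∀ x ∉ Y, ((Finset.univ.filter fun k => x ∈ S k).card : ℝ) ≤ (η + δ) * K) ∧
    (∀ x ∉ Y, x ∈ V →
      (1 - 2 * η) * K ≤ ((Finset.univ.filter fun k => mv θ x (-(n k : ℤ)) ∈ S k).card : ℝ)) ∧
    (∀ z ∈ Sep, η / 10 * K ≤
      ((Finset.univ.filter fun k => z.1 ∈ S k ∧ mv θ z.1 z.2 ∉ S k).card : ℝ))

/-- centred indicator -/
def zt (V : Set Cir) (η : ℝ) (x : Cir) : ℝ := V.indicator (fun _ => (1 : ℝ)) x - η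

def T_H : Prop := ∀ (θ : ℝ) (f : Cir → ℝ) (t : ℝ) (F : Fam θ f t) (V : Set Cir) (η δ A : ℝ)
  (Sep : Set (Cir × ℤ)) (v : Cir → ℝ) (R : ℝ), Tests θ f V η δ A Sep → MeasurableSet V →
  MeasurableSet Sep → 0 < η → η ≤ 1 / 2 → 0 < δ → δ ≤ 1 → RB v R →
  Real.exp (2 * R - A) ≤ δ ^ 2 →
  (F.ν v).real Sep ≤ 10 / η * (2 * η ^ 2 + |∫ x, F.ρ 0 x * zt V η x ∂mu| + 10 * δ)

/-- `x` and `x + kθ` lie in the same block (`D` = block starts) -/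
def SB (θ : ℝ) (D : Set Cir) : Set (Cir × ℤ) :=
  {z | ∀ i : ℤ, (0 < i ∧ i ≤ z.2 ∨ z.2 < i ∧ i ≤ 0) → mv θ z.1 i ∉ D}

/-- block structure: lengths at most `L`, cost at most `K` inside, at least `A` at the cuts -/
structure Blk (θ : ℝ) (f : Cir → ℝ) (L : ℕ) (K A : ℝ) (D : Set Cir) : Prop where
  mD : MeasurableSet D
  hit : ∀ x, ∃ i : ℕ, i < L ∧ mv θ x (-(i : ℤ)) ∈ D
  small : mu.real D ≤ 8 / L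
  exZ : ∃ Z, MeasurableSet Z ∧ mu.real Z ≤ 1 / (L : ℝ) ^ 2 ∧
    (∀ x ∉ Z, mv θ x 1 ∈ D → f x ≤ Real.exp (-A)) ∧
    (∀ x ∉ Z, mv θ x 1 ∉ D → Real.exp (-K) ≤ f x)

/-- approximate zero of a monotone Lipschitz map on block-constant functions -/
def T_fix : Prop := ∀ (θ : ℝ) (f : Cir → ℝ) (t : ℝ) (F : Fam θ f t) (π : Cir → Cir)
  (w : Cir → ℝ) (R ε e : ℝ), Measurable π → RB w R → 0 < ε → 0 < e →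
  ∃ s : Cir → ℝ, RB s (1 / ε) ∧ ∀ (ψ : Cir → ℝ) (Q : ℝ), RB ψ Q →
    |∫ x, (ε * s (π x) + F.ρ (fun y => w y + s (π y)) x - F.ρ 0 x) * ψ (π x) ∂mu| ≤ e * Q

/-- slowly varying functions are almost orthogonal to `ρ - t` -/
def Slow (θ : ℝ) (ρ : Cir → ℝ) (c e : ℝ) : Prop := ∀ ψ : Cir → ℝ, RB ψ 1 →
  ∫ x, |ψ (mv θ x 1) - ψ x| ∂mu ≤ c → |∫ x, (ρ x - ∫ y, ρ y ∂mu) * ψ x ∂mu| ≤ e

def T_erg : Prop := ∀ (θ : ℝ) (ρ : Cir → ℝ) (e : ℝ), Irrational θ → RB ρ 1 → 0 < e →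
  ∃ c > 0, Slow θ ρ c e

def T_final : Prop := T_fix → ∀ (L : ℕ) (K : ℝ), ∃ Kp : ℝ, ∀ (θ : ℝ) (f : Cir → ℝ) (t : ℝ)
  (F : Fam θ f t) (A : ℝ) (D : Set Cir) (γ lam : ℝ), Measurable f → (∀ x, 0 ≤ f x ∧ f x ≤ 1) →
  0 ≤ K → Blk θ f L K A D → Kp ≤ A → 0 < γ → γ ≤ 1 → 1 ≤ γ ^ 3 * L →
  Slow θ (F.ρ 0) (20 / L) (γ ^ 3) →
  (∀ v, RB v Kp → (F.ν v).real (SB θ D)ᶜ ≤ lam) → t * (1 - t) ≤ lam + 200 * γ

def T_bessel : Prop := ∀ (ρ : Cir → ℝ) (s : Finset ℕ) (ζ : ℕ → Cir → ℝ) (e : ℝ), RB ρ 1 →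
  s.Nonempty → (∀ i ∈ s, RB (ζ i) 1) → 0 ≤ e →
  (∀ i ∈ s, ∀ j ∈ s, i < j → |∫ x, ζ i x * ζ j x ∂mu| ≤ e) →
  ∃ i ∈ s, (∫ x, ρ x * ζ i x ∂mu) ^ 2 ≤ 1 / s.card + e

/-- `V` has frequency `η` along some times `≤ N` -/
def Avg (θ : ℝ) (V : Set Cir) (η δ : ℝ) (N : ℕ) : Prop :=
  ∃ (K : ℕ) (n : Fin K → ℕ) (Y : Set Cir), 0 < K ∧ (∀ k, n k ≤ N) ∧ MeasurableSet Y ∧
    mu.real Y ≤ δ ∧ ∀ x ∉ Y,
      |((Finset.univ.filter fun k => mv θ x (n k) ∈ V).card : ℝ) - η * K| ≤ δ * K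

def T_orth : Prop := ∀ (θ : ℝ) (V V' D' : Set Cir) (η η' δ : ℝ) (N : ℕ), MeasurableSet V →
  MeasurableSet V' → MeasurableSet D' → 0 ≤ η → η ≤ 1 → 0 ≤ η' → η' ≤ 1 → 0 ≤ δ →
  Avg θ V η δ N → (∀ x, mv θ x 1 ∉ D' → (x ∈ V' ↔ mv θ x 1 ∈ V')) →
  |∫ x, zt V η x * zt V' η' x ∂mu| ≤ 2 * δ + N * mu.real D'

/-- one level of the construction -/
structure Lev (θ : ℝ) (f : Cir → ℝ) (L hi N : ℕ) (K A η δ : ℝ) (V D : Set Cir) : Prop where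
  blk : Blk θ f L K A D
  mV : MeasurableSet V
  const : ∀ x, mv θ x 1 ∉ D → (x ∈ V ↔ mv θ x 1 ∈ V)
  avg : Avg θ V η δ N
  tests : ∃ Bad, MeasurableSet Bad ∧ mu.real Bad ≤ 3 * η ∧ Tests θ f V η δ A
    {z | |z.2| ≤ hi ∧ z ∉ SB θ D ∧ z.1 ∉ Bad ∧ mv θ z.1 z.2 ∉ Bad}

/-- the sparse code: one `true` per frame of length `E` -/
structure Code (E W P : ℕ) (c : ℕ → Bool) : Prop where
  cnt : ∀ b, |(((Finset.range (E * W)).filter fun k => c (b + k) = true).card : ℝ) - W| ≤ 1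
  sep : ∀ b ≤ P, ∀ b' ≤ P, b ≠ b' → W ≤ 10 *
    ((Finset.range (E * W)).filter fun k => c (b + k) = true ∧ c (b' + k) = false).card

def T_code : Prop := ∀ E W P : ℕ, 4 ≤ E → 16 ≤ W → P + 2 ≤ 2 ^ (W / 100) →
  ∃ c, Code E W P c

/-- one step function; `L` ideal block length, `E * W` tests, `N` return time to the arc -/
def T_step : Prop := T_code → ∀ (θ r K A δ : ℝ) (L hi E W N : ℕ), Irrational θ → 0 ≤ K → 0 ≤ A →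
  0 < δ → 4 ≤ E → 4 * δ * E ≤ 1 → 16 ≤ W → (E : ℝ) ≤ δ * W → 1 ≤ N → 100 * (N : ℝ) ≤ δ * L →
  100 * ((E * W : ℕ) + hi + 2 : ℝ) ≤ δ * 2 ^ (W / 100) →
  (∀ x, ∃ i : ℕ, 1 ≤ i ∧ i ≤ N ∧ ‖mv θ x (-(i : ℤ))‖ < r) →
  ∃ (a : Cir → ℝ) (G : ℝ) (V D : Set Cir), RB a G ∧ (∀ x, 0 ≤ a x) ∧ (∀ x, a x ≠ 0 → ‖x‖ < r) ∧
    mu.real {x | a x ≠ 0} ≤ 4 / L ∧
    ∀ (f : Cir → ℝ) (Y : Set Cir), Measurable f → MeasurableSet Y →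
      mu.real Y ≤ δ / (8 * (E * W : ℕ) * (L : ℝ) ^ 2) →
      (∀ x ∉ Y, Real.exp (-a x - K) ≤ f x ∧ f x ≤ Real.exp (-a x + 1)) →
      Lev θ f (2 * L) hi (E * W * L) K A (1 / E) δ V D

/-- frame length of level `j` -/
def EE' (j : ℕ) : ℕ := 2 ^ Nat.log 64 j

/-- numerical parameters -/
def T_par : Prop := ∃ L hi W : ℕ → ℕ, ∀ j ≥ 4096, 16 ≤ W j ∧ EE' j * 2 ^ j ≤ W j ∧
  100 * (EE' j * W j + hi j + 2) * 2 ^ j ≤ 2 ^ (W j / 100) ∧ 100 * 4 ^ j ≤ L j ∧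
  (∀ i ≤ 4096 * j, 2 * L i ≤ hi j) ∧
  ∀ i > j, 256 * 2 ^ i * (EE' j * W j) * L j ^ 2 ≤ L i

/-- shrinking arcs with controlled return times -/
def T_arc : Prop := ∀ θ : ℝ, Irrational θ → ∃ r : ℕ → ℝ, Tendsto r atTop (nhds 0) ∧
  ∀ j x, ∃ i : ℕ, 1 ≤ i ∧ i ≤ 2 ^ j ∧ ‖mv θ x (-(i : ℤ))‖ < r j

/-- smoothing of a step function -/
def T_smooth : Prop := ∀ (a : Cir → ℝ) (G r e : ℝ), RB a G → (∀ x, 0 ≤ a x) →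
  (∀ x, a x ≠ 0 → ‖x‖ < r) → 0 < e → ∃ (b : Cir → ℝ) (Y : Set Cir), Continuous b ∧
    (∀ x, 0 ≤ b x) ∧ (∀ x, b x ≠ 0 → ‖x‖ ≤ 2 * r) ∧ MeasurableSet Y ∧ mu.real Y ≤ e ∧
    ∀ x ∉ Y, |b x - a x| ≤ e

/-- the weight `exp (-1/‖x‖ - ∑ b_j)` -/
def wt (b : ℕ → Cir → ℝ) (x : Cir) : ℝ :=
  if x = 0 then 0 else Real.exp (-(1 / ‖x‖ + ∑' j, b j x))

def Wt (F : ℂ → ℝ) : Prop := Continuous F ∧ (∀ z : ℂ, ‖z‖ = 1 → 0 ≤ F z ∧ F z ≤ 1) ∧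
  (∀ z : ℂ, ‖z‖ = 1 → (F z = 0 ↔ z = 1)) ∧
  (∫⁻ t in Set.Ioc (0 : ℝ) (2 * Real.pi),
    ENNReal.ofReal (- Real.log (F (Complex.exp ((t : ℂ) * Complex.I)))) = ⊤)

def T_wt : Prop := ∀ (b : ℕ → Cir → ℝ) (r : ℕ → ℝ), Tendsto r atTop (nhds 0) →
  (∀ j, Continuous (b j)) → (∀ j x, 0 ≤ b j x) → (∀ j x, b j x ≠ 0 → ‖x‖ ≤ r j) →
  ∃ F, Wt F ∧ ∀ x : Cir, F (fourier 1 x) = wt b x

structure Design (θ : ℝ) (Kp : ℕ → ℝ → ℝ) (f : Cir → ℝ) (L hi N : ℕ → ℕ) (K A : ℕ → ℝ)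
    (V D : ℕ → Set Cir) : Prop where
  lev : ∀ j ≥ 4096, Lev θ f (L j) (hi j) (N j) (K j) (A j) (1 / EE' j) (1 / 2 ^ j) (V j) (D j)
  K0 : ∀ j ≥ 4096, 0 ≤ K j
  big : ∀ j ≥ 4096, 2 ^ j ≤ L j
  cover : ∀ j ≥ 4096, ∀ i ≤ 4096 * j, L i ≤ hi j
  gap : ∀ j ≥ 4096, ∀ i > j, 8 * 2 ^ j * N j ≤ L i
  cost : ∀ j ≥ 4096, ∀ i ≥ j, 2 * |Kp (L j) (K j)| + 2 * i ≤ A i

def T_design : Prop := T_step → T_code → T_par → T_arc → T_smooth → T_wt →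
  ∀ θ : ℝ, Irrational θ → ∀ Kp : ℕ → ℝ → ℝ, ∃ F L hi N K A V D, Wt F ∧
    Design θ Kp (fun x => F (fourier 1 x)) L hi N K A V D

def T_main : Prop := T_H → T_erg → T_bessel → T_orth → ∀ (θ : ℝ) (Kp : ℕ → ℝ → ℝ)
  (f : Cir → ℝ) (t : ℝ) (F : Fam θ f t) (L hi N : ℕ → ℕ) (K A : ℕ → ℝ) (V D : ℕ → Set Cir),
  Irrational θ → Design θ Kp f L hi N K A V D →
  (∀ j ≥ 4096, ∀ (γ lam : ℝ), 0 < γ → γ ≤ 1 → 1 ≤ γ ^ 3 * L j →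
    Slow θ (F.ρ 0) (20 / L j) (γ ^ 3) →
    (∀ v, RB v (Kp (L j) (K j)) → (F.ν v).real (SB θ (D j))ᶜ ≤ lam) →
    t * (1 - t) ≤ lam + 200 * γ) → t * (1 - t) ≤ 0

end Crest.Agent.H9.RI
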