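import Crest.Agent.H9.RI.Defs
import Crest.Agent.H8.RI.Smooth

set_option autoImplicit false

noncomputable section

namespace Crest.Agent.H9.RI

open MeasureTheory Set Filter Crest.AnalysisR.RotationRep Crest.Agent.H2.RP
open scoped Classical

theorem EE'_ge {j : ℕ} (hj : 4096 ≤ j) : 4 ≤ EE' j := by
  have : 2 ≤ Nat.log 64 j := Nat.le_log_of_pow_le (by norm_num) (by norm_num; exact hj)
  calc 4 = 2 ^ 2 := by norm_num
    _ ≤ 2 ^ Nat.log 64 j := Nat.pow_le_pow_right (by norm_num) this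

theorem EE'_le {j : ℕ} (hj : 4096 ≤ j) : 4 * EE' j ≤ 2 ^ j := by
  have h1 : 64 ^ Nat.log 64 j ≤ j := Nat.pow_log_le_self 64 (by omega)
  have h2 : 2 ≤ Nat.log 64 j := Nat.le_log_of_pow_le (by norm_num) (by norm_num; exact hj)
  have h3 : Nat.log 64 j + 2 ≤ 64 ^ Nat.log 64 j := by
    have : ∀ n : ℕ, n + 1 + 2 ≤ 64 ^ (n + 1) := by
      intro n
      induction n with
      | zero => norm_num
      | succ n ih => rw [pow_succ]; omega
    obtain ⟨n, hn⟩ : ∃ n, Nat.log 64 j = n + 1 := ⟨Nat.log 64 j - 1, by omega⟩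
    rw [hn]; exact this n
  calc 4 * EE' j = 2 ^ (Nat.log 64 j + 2) := by rw [EE', pow_add]; ring
    _ ≤ 2 ^ j := Nat.pow_le_pow_right (by norm_num) (h3.trans h1)

/-- one level, for given `K` and `A` -/
theorem one_level (h1 : T_step) (h2 : T_code) (h5 : T_smooth) (θ : ℝ) (hθ : Irrational θ)
    (L hi W : ℕ → ℕ) (r : ℕ → ℝ)
    (hp : ∀ j ≥ 4096, 16 ≤ W j ∧ EE' j * 2 ^ j ≤ W j ∧
      100 * (EE' j * W j + hi j + 2) * 2 ^ j ≤ 2 ^ (W j / 100) ∧ 100 * 4 ^ j ≤ L j)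
    (hr : ∀ j x, ∃ i : ℕ, 1 ≤ i ∧ i ≤ 2 ^ j ∧ ‖mv θ x (-(i : ℤ))‖ < r j) (j : ℕ) (K A : ℝ) :
    ∃ (a b : Cir → ℝ) (M : ℝ) (V D Y1 Y2 : Set Cir), Continuous b ∧ (∀ x, 0 ≤ b x ∧ b x ≤ M) ∧
      (∀ x, b x ≠ 0 → ‖x‖ ≤ 2 * r j) ∧ MeasurableSet Y1 ∧ MeasurableSet Y2 ∧
      (4096 ≤ j → 0 ≤ K → 0 ≤ A → mu.real Y1 ≤ 1 / L (j + 1) ∧ (∀ x ∉ Y1, |b x - a x| ≤ 1) ∧
        mu.real Y2 ≤ 4 / L j + 1 / L (j + 1) ∧ (∀ x ∉ Y2, b x ≤ (1 / 2) ^ (j + 1)) ∧
        ∀ (f : Cir → ℝ) (Y : Set Cir), Measurable f → MeasurableSet Y →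
          mu.real Y ≤ (1 / 2 ^ j) / (8 * (EE' j * W j : ℕ) * (L j : ℝ) ^ 2) →
          (∀ x ∉ Y, Real.exp (-a x - K) ≤ f x ∧ f x ≤ Real.exp (-a x + 1)) →
          Lev θ f (2 * L j) (hi j) (EE' j * W j * L j) K A (1 / EE' j) (1 / 2 ^ j) V D) := by
  by_cases hc : 4096 ≤ j ∧ 0 ≤ K ∧ 0 ≤ A
  swap
  · exact ⟨0, 0, 0, ∅, ∅, ∅, ∅, continuous_const, fun x => by simp, fun x hx => absurd rfl hx,
      .empty, .empty, fun a b c => absurd ⟨a, b, c⟩ hc⟩
  obtain ⟨hj, hK, hA⟩ := hc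
  obtain ⟨p1, p2, p3, p4⟩ := hp j hj
  obtain ⟨-, -, -, q4⟩ := hp (j + 1) (by omega)
  have e2 : (0 : ℝ) < 2 ^ j := by positivity
  have c1 : (4 : ℝ) * EE' j ≤ 2 ^ j := by exact_mod_cast EE'_le hj
  have c2 : (EE' j : ℝ) * 2 ^ j ≤ W j := by exact_mod_cast p2
  have c3 : (100 : ℝ) * ((EE' j * W j : ℕ) + hi j + 2) * 2 ^ j ≤ 2 ^ (W j / 100) := by
    exact_mod_cast p3
  have c4 : (100 : ℝ) * 4 ^ j ≤ L j := by exact_mod_cast p4
  have c5 : (100 : ℝ) * 4 ^ (j + 1) ≤ L (j + 1) := by exact_mod_cast q4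
  have e4 : (4 : ℝ) ^ j = 2 ^ j * 2 ^ j := by rw [← mul_pow]; norm_num
  obtain ⟨a, G, V, D, ha, ha0, has, ham, hL⟩ := h1 h2 θ (r j) K A (1 / 2 ^ j) (L j) (hi j) (EE' j)
    (W j) (2 ^ j) hθ hK hA (by positivity) (EE'_ge hj)
    (by rw [mul_one_div, div_mul_eq_mul_div, div_le_one e2]; exact c1) p1
    (by rw [one_div_mul_eq_div, le_div_iff₀ e2]; exact c2) Nat.one_le_two_pow
    (by rw [one_div_mul_eq_div, le_div_iff₀ e2]; push_cast; nlinarith)
    (by rw [one_div_mul_eq_div, le_div_iff₀ e2]; exact c3) (hr j)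
  have c6 : (2 : ℝ) ^ (j + 1) ≤ L (j + 1) := by
    have : (2 : ℝ) ^ (j + 1) ≤ 4 ^ (j + 1) := pow_le_pow_left₀ (by norm_num) (by norm_num) _
    have : (0 : ℝ) < 4 ^ (j + 1) := by positivity
    linarith
  have c7 : (0 : ℝ) < L (j + 1) := lt_of_lt_of_le (by positivity) c6
  have c8 : (1 : ℝ) / L (j + 1) ≤ (1 / 2) ^ (j + 1) := by
    rw [one_div_pow]; exact one_div_le_one_div_of_le (by positivity) c6
  have c9 : ((1 : ℝ) / 2) ^ (j + 1) ≤ 1 := pow_le_one₀ (by norm_num) (by norm_num)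
  obtain ⟨b, Y, hb, hb0, hbs, hY, hYm, hbe⟩ := h5 a G (r j) (1 / L (j + 1)) ha ha0 has
    (by positivity)
  obtain ⟨M, hM⟩ := (isCompact_range hb).bddAbove
  have hm : MeasurableSet {x | a x ≠ 0} := (ha.1 (measurableSet_singleton 0)).compl
  refine ⟨a, b, M, V, D, Y, {x | a x ≠ 0} ∪ Y, hb, fun x => ⟨hb0 x, hM ⟨x, rfl⟩⟩, hbs, hY,
    hm.union hY, fun _ _ _ => ⟨hYm, fun x hx => (hbe x hx).trans (c8.trans c9),
      (measureReal_union_le _ _).trans (add_le_add ham hYm), fun x hx => ?_, hL⟩⟩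
  simp only [mem_union, mem_ofPred_eq, not_or, not_not] at hx
  have := hbe x hx.2
  rw [hx.1, sub_zero] at this
  exact (le_abs_self _).trans (this.trans c8)

theorem mu_ball (e : ℝ) (he : 0 ≤ e) : mu.real (Metric.closedBall (0 : Cir) e) ≤ 2 * e := by
  rw [Measure.real, Crest.Agent.H8.RI.mu_eq_volume, AddCircle.volume_closedBall,
    ENNReal.toReal_ofReal (le_min zero_le_one (by linarith))]
  exact min_le_right _ _

theorem mu_iUnion (Y : ℕ → Set Cir) (c : ℝ) (hc : 0 ≤ c)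
    (h : ∀ i, mu.real (Y i) ≤ c * (1 / 2) ^ i) : mu.real (⋃ i, Y i) ≤ 2 * c := by
  have h1 : mu (⋃ i, Y i) ≤ ENNReal.ofReal (2 * c) := by
    refine (measure_iUnion_le _).trans ?_
    have hs : Summable fun i : ℕ => c * (1 / 2 : ℝ) ^ i := summable_geometric_two.mul_left c
    calc ∑' i, mu (Y i) ≤ ∑' i : ℕ, ENNReal.ofReal (c * (1 / 2) ^ i) :=
          ENNReal.tsum_le_tsum fun i => by
            rw [← ofReal_measureReal (measure_ne_top _ _)]
            exact ENNReal.ofReal_le_ofReal (h i)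
      _ = ENNReal.ofReal (∑' i : ℕ, c * (1 / 2) ^ i) :=
          (ENNReal.ofReal_tsum_of_nonneg (fun i => by positivity) hs).symm
      _ = ENNReal.ofReal (2 * c) := by rw [tsum_mul_left, tsum_geometric_two, mul_comm]
  exact ENNReal.toReal_le_of_le_ofReal (by positivity) h1

theorem t_design : T_design := by
  intro h1 h2 h3 h4 h5 h6 θ hθ Kp
  obtain ⟨L, hi, W, hp⟩ := h3
  obtain ⟨r, hr0, hr⟩ := h4 θ hθ
  choose a b M V D Y1 Y2 hb hbM hbs hY1 hY2 H using one_level h1 h2 h5 θ hθ L hi W r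
    (fun j hj => ⟨(hp j hj).1, (hp j hj).2.1, (hp j hj).2.2.1, (hp j hj).2.2.2.1⟩) hr
  let Kf : ℕ → ℝ × ℝ → ℝ := fun j s => L (j + 1) + s.1 + 2
  let Af : ℕ → ℝ × ℝ → ℝ := fun j s => 2 * (s.2 + |Kp (2 * L j) (Kf j s)|) + 2 * j
  let st : ℕ → ℝ × ℝ := fun j => Nat.rec (0, 0)
    (fun j s => (s.1 + M j (Kf j s) (Af j s), s.2 + |Kp (2 * L j) (Kf j s)|)) j
  let K : ℕ → ℝ := fun j => Kf j (st j)
  let A : ℕ → ℝ := fun j => Af j (st j)
  have s1 : ∀ j, (st j).1 = ∑ i ∈ Finset.range j, M i (K i) (A i) := by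
    intro j
    induction j with
    | zero => rfl
    | succ j ih => rw [Finset.sum_range_succ, ← ih]
  have s2 : ∀ j, (st j).2 = ∑ i ∈ Finset.range j, |Kp (2 * L i) (K i)| := by
    intro j
    induction j with
    | zero => rfl
    | succ j ih => rw [Finset.sum_range_succ, ← ih]
  have hK : ∀ j, K j = L (j + 1) + ∑ i ∈ Finset.range j, M i (K i) (A i) + 2 := fun j => by
    rw [← s1]
  have hA : ∀ j, A j = 2 * ∑ i ∈ Finset.range (j + 1), |Kp (2 * L i) (K i)| + 2 * j := fun j => by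
    rw [Finset.sum_range_succ, ← s2]
  clear_value K A
  clear s1 s2 st Kf Af
  have M0 : ∀ j, 0 ≤ M j (K j) (A j) := fun j => (hbM j _ _ 0).1.trans (hbM j _ _ 0).2
  have K0 : ∀ j, 0 ≤ K j := fun j => by
    rw [hK]; have := Finset.sum_nonneg (s := Finset.range j) fun i _ => M0 i; positivity
  have A0 : ∀ j, 0 ≤ A j := fun j => by rw [hA]; positivity
  obtain ⟨F, hW, hF⟩ := h6 (fun j => b j (K j) (A j)) (fun j => 2 * r j)
    (by simpa using hr0.const_mul 2) (fun j => hb j _ _) (fun j x => (hbM j _ _ x).1)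
    (fun j x => hbs j _ _ x)
  have hc : Continuous fun x : Cir => F (fourier 1 x) := hW.1.comp (map_continuous _)
  refine ⟨F, fun j => 2 * L j, hi, fun j => EE' j * W j * L j, K, A, fun j => V j (K j) (A j),
    fun j => D j (K j) (A j), hW, ⟨fun j hj => ?_, fun j _ => K0 j, fun j hj => ?_,
      fun j hj => (hp j hj).2.2.2.2.1, fun j hj i hi => ?_, fun j hj i hi => ?_⟩⟩
  · obtain ⟨p1, -, -, p4, -, p6⟩ := hp j hj
    obtain ⟨q1, q2, -, -, q5⟩ := H j (K j) (A j) hj (K0 j) (A0 j)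
    have hE := EE'_ge hj
    have hLj : 0 < L j := lt_of_lt_of_le (by positivity) p4
    obtain ⟨X, hX⟩ : ∃ X : ℝ, X = (EE' j * W j : ℕ) * (L j : ℝ) ^ 2 := ⟨_, rfl⟩
    have X0 : 0 < X := by
      have : 0 < EE' j * W j := Nat.mul_pos (by omega) (by omega)
      rw [hX]; positivity
    have hL : ∀ i : ℕ, 1 / (L (j + 1 + i) : ℝ) ≤ 1 / (512 * 2 ^ j * X) * (1 / 2) ^ i := by
      intro i
      have h : (256 : ℝ) * 2 ^ (j + 1 + i) * (EE' j * W j : ℕ) * (L j : ℝ) ^ 2 ≤ L (j + 1 + i) := by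
        exact_mod_cast p6 (j + 1 + i) (by omega)
      rw [one_div_pow, one_div_mul_one_div]
      refine one_div_le_one_div_of_le (by positivity) (le_trans (le_of_eq ?_) h)
      rw [hX]; ring
    have l1 : (0 : ℝ) < L (j + 1) := by
      have := (hp (j + 1) (by omega)).2.2.2.1
      have : 0 < L (j + 1) := lt_of_lt_of_le (by positivity) this
      exact_mod_cast this
    obtain ⟨c, hc'⟩ : ∃ c : ℝ, c = 1 / (512 * 2 ^ j * X) := ⟨_, rfl⟩
    have c0 : 0 < c := by rw [hc']; positivity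
    rw [← hc'] at hL
    refine q5 _ (Y1 j (K j) (A j) ∪ Metric.closedBall 0 (1 / L (j + 1)) ∪
      ⋃ i, Y2 (j + 1 + i) (K (j + 1 + i)) (A (j + 1 + i))) hc.measurable
      (((hY1 _ _ _).union Metric.isClosed_closedBall.measurableSet).union
        (.iUnion fun i => hY2 _ _ _)) ?_ fun x hx => ?_
    · have u1 := mu_iUnion (fun i => Y2 (j + 1 + i) (K (j + 1 + i)) (A (j + 1 + i))) (5 * c)
        (by positivity) fun i => by
          have v1 := (H (j + 1 + i) _ _ (by omega) (K0 (j + 1 + i)) (A0 (j + 1 + i))).2.2.1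
          have v2 := hL i
          have v3 := hL (i + 1)
          have v4 : (0 : ℝ) < c * (1 / 2) ^ i := by positivity
          rw [pow_succ, ← add_assoc] at v3
          have v5 : (4 : ℝ) / L (j + 1 + i) = 4 * (1 / L (j + 1 + i)) := by ring
          nlinarith
      have u2 := mu_ball (1 / L (j + 1)) (by positivity)
      have u3 := hL 0
      simp only [add_zero, pow_zero, mul_one] at u3
      have u4 : (1 / 2 ^ j) / (8 * ((EE' j * W j : ℕ) : ℝ) * (L j : ℝ) ^ 2) = 64 * c := by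
        rw [mul_assoc, ← hX, hc']; field_simp; norm_num
      refine (measureReal_union_le _ _).trans ?_
      have u5 := measureReal_union_le (μ := mu) (Y1 j (K j) (A j))
        (Metric.closedBall 0 (1 / L (j + 1)))
      rw [u4]; linarith
    · simp only [mem_union, mem_iUnion, not_or, not_exists, mem_closedBall_zero_iff, not_le] at hx
      obtain ⟨⟨x1, x2⟩, x3⟩ := hx
      have n0 : 0 < ‖x‖ := lt_trans (by positivity) x2
      have x0 : x ≠ 0 := norm_pos_iff.1 n0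
      have t1 : ∀ i, b (i + (j + 1)) (K (i + (j + 1))) (A (i + (j + 1))) x ≤ (1 / 2) * (1 / 2) ^ i := by
        intro i
        rw [add_comm i]
        refine ((H (j + 1 + i) _ _ (by omega) (K0 _) (A0 _)).2.2.2.1 x (x3 i)).trans ?_
        rw [← pow_succ']
        exact pow_le_pow_of_le_one (by norm_num) (by norm_num) (by omega)
      have g1 : Summable fun i : ℕ => (1 / 2 : ℝ) * (1 / 2) ^ i := summable_geometric_two.mul_left _
      have t2 : Summable fun i => b (i + (j + 1)) (K (i + (j + 1))) (A (i + (j + 1))) x :=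
        .of_nonneg_of_le (fun i => (hbM _ _ _ x).1) t1 g1
      have t3 : Summable fun i => b i (K i) (A i) x :=
        (summable_nat_add_iff (f := fun i => b i (K i) (A i) x) (j + 1)).1 t2
      have t4 := t3.sum_add_tsum_nat_add (j + 1)
      have t5 := t2.tsum_le_tsum t1 g1
      rw [tsum_mul_left, tsum_geometric_two] at t5
      have t6 : 0 ≤ ∑' i, b (i + (j + 1)) (K (i + (j + 1))) (A (i + (j + 1))) x :=
        tsum_nonneg fun i => (hbM _ _ _ x).1
      rw [Finset.sum_range_succ] at t4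
      have t7 : ∑ i ∈ Finset.range j, b i (K i) (A i) x ≤ ∑ i ∈ Finset.range j, M i (K i) (A i) :=
        Finset.sum_le_sum fun i _ => (hbM _ _ _ x).2
      have t8 : 0 ≤ ∑ i ∈ Finset.range j, b i (K i) (A i) x :=
        Finset.sum_nonneg fun i _ => (hbM _ _ _ x).1
      have t9 : 1 / ‖x‖ ≤ L (j + 1) := by
        rw [div_le_iff₀ n0]; rw [div_lt_iff₀ l1] at x2; linarith
      have t10 : 0 < 1 / ‖x‖ := by positivity
      have t11 := abs_le.1 (q2 x x1)
      have t12 := hK j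
      simp only [hF, wt, if_neg x0, Real.exp_le_exp]
      constructor <;> linarith [t11.1, t11.2]
  · have := (hp j hj).2.2.2.1
    have : 2 ^ j ≤ 4 ^ j := Nat.pow_le_pow_left (by norm_num) _
    show 2 ^ j ≤ 2 * L j
    omega
  · have h := (hp j hj).2.2.2.2.2 i hi
    have hLj : 0 < L j := lt_of_lt_of_le (by positivity) (hp j hj).2.2.2.1
    have e : 2 ^ j ≤ 2 ^ i := Nat.pow_le_pow_right (by norm_num) hi.le
    show 8 * 2 ^ j * (EE' j * W j * L j) ≤ 2 * L i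
    calc 8 * 2 ^ j * (EE' j * W j * L j) = 8 * 2 ^ j * (EE' j * W j) * (L j * 1) := by ring
      _ ≤ 256 * 2 ^ i * (EE' j * W j) * (L j * L j) := by gcongr <;> omega
      _ ≤ 2 * L i := by rw [← sq]; omega
  · rw [hA i]
    have := Finset.single_le_sum (f := fun i => |Kp (2 * L i) (K i)|) (s := Finset.range (i + 1))
      (fun i _ => abs_nonneg _) (Finset.mem_range.2 (Nat.lt_succ_of_le hi))
    show 2 * |Kp (2 * L j) (K j)| + 2 * (i : ℝ) ≤ _
    linarith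

end Crest.Agent.H9.RI
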