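import Crest.Agent.H9.RI.Defs

/-! Sub-skeletons for `T_final` and `T_step`. -/

set_option autoImplicit false

noncomputable section

namespace Crest.Agent.H9.RI

open MeasureTheory Set Filter Crest.AnalysisR.RotationRep Crest.Agent.H2.RP
open scoped Classical

/-- position in the block and distance to the next block start -/
structure Geo (θ : ℝ) (L : ℕ) (D : Set Cir) (pos rem : Cir → ℕ) : Prop where
  mD : MeasurableSet D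
  mpos : Measurable pos
  mrem : Measurable rem
  lt : ∀ x, pos x < L
  r1 : ∀ x, 1 ≤ rem x
  rL : ∀ x, rem x ≤ L
  stepN : ∀ x, mv θ x 1 ∉ D → pos (mv θ x 1) = pos x + 1 ∧ rem x = rem (mv θ x 1) + 1
  stepD : ∀ x, mv θ x 1 ∈ D → pos (mv θ x 1) = 0 ∧ rem x = 1
  posD : ∀ x, mv θ x (-(pos x : ℤ)) ∈ D
  remD : ∀ x, mv θ x (rem x) ∈ D
  sb : ∀ x k, (x, k) ∈ SB θ D →
    (pos (mv θ x k) : ℤ) = pos x + k ∧ (rem (mv θ x k) : ℤ) = rem x - k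

def T_geo : Prop := ∀ (θ : ℝ) (L : ℕ) (D : Set Cir), MeasurableSet D →
  (∀ x, ∃ i : ℕ, i < L ∧ mv θ x (-(i : ℤ)) ∈ D) → ∃ pos rem, Geo θ L D pos rem

/-- small weighted variation gives a block-constant approximation -/
def T_apx : Prop := ∀ (θ : ℝ) (L : ℕ) (D : Set Cir) (pos rem : Cir → ℕ) (ρ : Cir → ℝ) (γ : ℝ),
  Geo θ L D pos rem → mu.real D ≤ 8 / L → Measurable ρ → (∀ x, 0 ≤ ρ x ∧ ρ x ≤ 1) → 0 < γ →
  γ ≤ 1 → 1 ≤ γ ^ 3 * L →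
  ∫ x, |ρ (mv θ x 1) - ρ x| * ((pos (mv θ x 1) : ℝ) * rem (mv θ x 1) / 2) ∂mu ≤ γ ^ 3 * L + 3 →
  ∃ φ : Cir → ℝ, Measurable φ ∧ (∀ x, 0 ≤ φ x ∧ φ x ≤ 1) ∧
    ∫ x, |ρ x - φ (mv θ x (-(pos x : ℤ)))| ∂mu ≤ 70 * γ

/-- `h` = time since the last reset, `b` = block number -/
structure Clock (θ r : ℝ) (L N : ℕ) (ι : ℝ) (I : Set Cir) (h b : Cir → ℕ) : Prop where
  mI : MeasurableSet I
  mh : Measurable h
  mb : Measurable b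
  small : mu.real I ≤ ι
  hs : ∀ x, mv θ x 1 ∉ I → h (mv θ x 1) = h x + 1
  hI : ∀ x, mv θ x (-(h x : ℤ)) ∈ I
  supp : ∀ x, b (mv θ x 1) ≠ b x → ‖x‖ < r
  lo : ∀ x, N ≤ h x → (h x - N) / L ≤ b x ∧ b x ≤ h x / L
  inc : ∀ x, N ≤ h x → b (mv θ x 1) = b x ∨ b (mv θ x 1) = b x + 1

def T_clock : Prop := ∀ (θ r ι : ℝ) (L N : ℕ), Irrational θ → 0 < ι → 1 ≤ N → N ≤ L →
  (∀ x, ∃ i : ℕ, 1 ≤ i ∧ i ≤ N ∧ ‖mv θ x (-(i : ℤ))‖ < r) → ∃ I h b, Clock θ r L N ι I h b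

/-- counting along orbits bounds the measure -/
def T_cnt : Prop := ∀ (θ : ℝ) (S Y : Set Cir) (n : ℕ) (m : Fin n → ℤ) (c : ℝ), MeasurableSet S →
  MeasurableSet Y → 0 < n → 0 ≤ c →
  (∀ x ∉ Y, ((Finset.univ.filter fun k => mv θ x (m k) ∈ S).card : ℝ) ≤ c) →
  mu.real S ≤ c / n + mu.real Y

/-- the exceptional zone of the tests -/
def T_zone : Prop := T_cnt → ∀ (θ r ι : ℝ) (L N P M : ℕ) (I : Set Cir) (h b : Cir → ℕ),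
  Clock θ r L N ι I h b → 1 ≤ N → N ≤ L → 1 ≤ M → M ≤ P → ∃ Y, MeasurableSet Y ∧
    mu.real Y ≤ (N : ℝ) / L + 2 * M / P + 5 * P * L * ι ∧ ∀ x ∉ Y,
      (∀ i : ℕ, i ≤ M * L → N ≤ h (mv θ x i)) ∧ ∀ k : ℕ, k < M →
        b (mv θ x (k * L : ℕ)) = b x + k ∧ b (mv θ x (k * L : ℕ)) % P = b x % P + k ∧
        b (mv θ x (-((k * L : ℕ) : ℤ))) % P + k = b x % P

/-- block lengths and density of the cuts -/
def T_blk : Prop := T_cnt → ∀ (θ r ι : ℝ) (L N : ℕ) (I : Set Cir) (h b : Cir → ℕ),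
  Clock θ r L N ι I h b → 1 ≤ N → 2 * N ≤ L →
    (∀ x, ∃ i : ℕ, i < 2 * L ∧ mv θ x (-(i : ℤ)) ∈ {y | b y ≠ b (mv θ y (-1))} ∪ I) ∧
    mu.real {x | b (mv θ x 1) ≠ b x} ≤ 2 / L + 2 * L * ι ∧
    mu.real ({y | b y ≠ b (mv θ y (-1))} ∪ I) ≤ 2 / L + 3 * L * ι

/-- nearby points in different blocks have different block numbers mod `P` -/
def T_sep : Prop := ∀ (θ r ι : ℝ) (L N P hi : ℕ) (I : Set Cir) (h b : Cir → ℕ),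
  Clock θ r L N ι I h b → hi < P → ∃ Y, MeasurableSet Y ∧ mu.real Y ≤ (N + 2 * hi + 1) * ι ∧
    ∀ x ∉ Y, ∀ k : ℤ, |k| ≤ hi → (x, k) ∉ SB θ ({y | b y ≠ b (mv θ y (-1))} ∪ I) →
      b x % P ≠ b (mv θ x k) % P

end Crest.Agent.H9.RI
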