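import Crest.Agent.H9.RI.Defs

/-! Skeleton for S0149: assembly. -/

set_option autoImplicit false

noncomputable section

namespace Crest.Agent.H9.RI

open MeasureTheory Set Filter Crest.AnalysisR.RotationRep Crest.Agent.H2.RP Crest.Agent.H4.VD

theorem assemble (h1 : T_vt) (h2 : T_ker) (h3 : T_gain) (h4 : T_cake) (h5 : T_lip) (h6 : T_mono)
    (h7 : T_hyp) (h8 : T_fam) (h9 : T_H) (h10 : T_fix) (h11 : T_erg) (h12 : T_final)
    (h13 : T_bessel) (h14 : T_orth) (h15 : T_code) (h16 : T_step) (h17 : T_par) (h18 : T_arc)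
    (h19 : T_smooth) (h20 : T_wt) (h21 : T_design) (h22 : T_main)
    (θ : ℝ) (hθ : Irrational θ) : ∃ F : ℂ → ℝ, Wt F ∧ ∀ U V : Op, IsRotationPair θ U V →
      ∀ p : Op, p ∈ vonNeumannGenerated {U, V} → IsStarProjection p →
        (1 - p) * (U * cfc (fun z : ℂ => (F z : ℂ)) V) * p = 0 → p = 0 ∨ p = 1 := by
  choose Kp hKp using h12 h10
  obtain ⟨F, L, hi, N, K, A, V', D, hW, hD⟩ := h21 h16 h15 h17 h18 h19 h20 θ hθ Kp
  refine ⟨F, hW, fun U V hUV p hp hpp hinv => ?_⟩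
  obtain ⟨T, hT⟩ := h1 θ U V hUV
  have hc : Continuous fun x : Cir => F (fourier 1 x) := hW.1.comp (map_continuous _)
  have h01 : ∀ x : Cir, 0 ≤ F (fourier 1 x) ∧ F (fourier 1 x) ≤ 1 := fun x =>
    hW.2.1 _ (Circle.norm_coe _)
  have hM : p ∈ T.M := hT.sub hp
  rw [cfc_V hUV (F := fun z => (F z : ℂ)) (Complex.continuous_ofReal.comp hW.1)] at hinv
  obtain ⟨Fa⟩ := h8 h2 h3 h4 h5 h6 h7 θ U V T _ p ⟨hT, hc.measurable, h01, hpp, hM, hinv⟩
  have key := h22 h9 h11 h13 h14 θ Kp _ _ Fa L hi N K A V' D hθ hD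
    fun j hj γ lam g0 g1 g2 g3 g4 => hKp (L j) (K j) θ _ _ Fa (A j) (D j) γ lam hc.measurable h01
      (hD.K0 j hj) (hD.lev j hj).blk (by
        have := hD.cost j hj j le_rfl
        have := le_abs_self (Kp (L j) (K j))
        have := abs_nonneg (Kp (L j) (K j))
        have : (0 : ℝ) ≤ j := Nat.cast_nonneg _
        linarith) g0 g1 g2 g3 g4
  have a0 := VT.t_proj_nonneg (T := T) hpp
  have a1 := VT.t_proj_le_one (T := T) hpp
  rcases a0.eq_or_lt with e | e
  · exact Or.inl (VT.proj_eq_zero hpp hM e.ge)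
  · right
    have : 1 - p = 0 := VT.proj_eq_zero hpp.one_sub (VT.sub_mem VT.one_mem hM) (by
      rw [VT.t_sub, VT.t_one]
      by_contra h
      push Not at h
      nlinarith [mul_pos e h])
    exact (sub_eq_zero.1 this).symm

end Crest.Agent.H9.RI
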